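import Vale.Agent.P088.R2.H303.F.ZoneU
import Vale.Agent.P088.R2.H168.INF.T
import Vale.Agent.P088.R2.H168.INF.No3

/-!
# P088, stage 3, EST': payments at infinity, the common form

`PB c s n₁ n₂ F₁ F₂ M z`: the margin `M` is at least `c s n_i` (for `|X|²`) and
`c s (n_i F_i + s n_i²)` (for `a²`, `b²`); `CB e ..`: the cost is at most the same with `e`.
`PB.pay`: `K` times the cost is at most the margin if `K e ≤ c`.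
-/

open Set Filter
open scoped ContDiff Topology

noncomputable section

namespace Vale.Agent.P088.R2.H871.E

open Vale.Agent.P088.R2.H961.GW Vale.Agent.P088.R2.H644 Vale.Agent.P088.R2.H960.W
open Vale.Agent.P088.R2.H551.E Vale.Agent.P088.R2.H747.SW

variable {E ι : Type*} [NormedAddCommGroup E] [NormedSpace ℝ E] [Fintype ι]

/-- The payer. -/
structure PB (c s n₁ n₂ F₁ F₂ : ℝ) (M : Q8 E) (z : E) : Prop where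
  κ : 0 ≤ M.κ z
  ζ₁ : c * (s * n₁) ≤ M.ζ₁ z
  ζ₂ : c * (s * n₂) ≤ M.ζ₂ z
  ζy : 0 ≤ M.ζy z
  w₁ : c * (s * (n₁ * F₁ + s * n₁ ^ 2)) ≤ M.w₁ z
  w₂ : c * (s * (n₂ * F₂ + s * n₂ ^ 2)) ≤ M.w₂ z
  wb : 0 ≤ M.wb z
  wc : 0 ≤ M.wc z

/-- The cost. -/
structure CB (e s n₁ n₂ F₁ F₂ : ℝ) (co : Q8 E) (z : E) : Prop where
  κ : co.κ z ≤ 0
  ζ₁ : co.ζ₁ z ≤ e * (s * n₁)
  ζ₂ : co.ζ₂ z ≤ e * (s * n₂)
  ζy : co.ζy z ≤ 0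
  w₁ : co.w₁ z ≤ e * (s * (n₁ * F₁ + s * n₁ ^ 2))
  w₂ : co.w₂ z ≤ e * (s * (n₂ * F₂ + s * n₂ ^ 2))
  wb : co.wb z ≤ 0
  wc : co.wc z ≤ 0

variable {c e s n₁ n₂ F₁ F₂ K : ℝ} {M co : Q8 E} {z : E}
  {σ τ : Sl E ι} {v₁ v₂ W a b m m₁ m₂ χ : E → ℝ} {κ₀ η : ℝ}

/-- **The payment.** -/
theorem PB.pay (p : PB c s n₁ n₂ F₁ F₂ M z) (q : CB e s n₁ n₂ F₁ F₂ co z) (hK : 0 ≤ K)
    (h : K * e ≤ c) (hs : 0 ≤ s) (h1 : 0 ≤ n₁) (h2 : 0 ≤ n₂) (h3 : 0 ≤ F₁) (h4 : 0 ≤ F₂) :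
    K * co.dens σ τ v₁ v₂ W a b z ≤ M.dens σ τ v₁ v₂ W a b z := by
  unfold Q8.dens
  have k0 := sqd_nonneg σ τ v₁ v₂ W a b z
  have k1 := Q8.nX_nonneg σ W a z
  have k2 := Q8.nX_nonneg τ W b z
  have k3 := Q8.nY_nonneg σ τ W a b z
  have key : ∀ {x y t : ℝ}, 0 ≤ t → x ≤ e * t → c * t ≤ y → K * x ≤ y := by
    intro x y t ht hx hy
    have h5 := mul_le_mul_of_nonneg_left hx hK
    have h6 := mul_le_mul_of_nonneg_right h ht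
    have e1 : K * (e * t) = K * e * t := by ring
    linarith
  have key0 : ∀ {x y : ℝ}, x ≤ 0 → 0 ≤ y → K * x ≤ y := by
    intro x y hx hy
    have := mul_nonpos_of_nonneg_of_nonpos hK hx
    linarith
  have t1 : 0 ≤ s * n₁ := mul_nonneg hs h1
  have t2 : 0 ≤ s * n₂ := mul_nonneg hs h2
  have t3 : 0 ≤ s * (n₁ * F₁ + s * n₁ ^ 2) := by positivity
  have t4 : 0 ≤ s * (n₂ * F₂ + s * n₂ ^ 2) := by positivity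
  have j0 := mul_le_mul_of_nonneg_right (key0 q.κ p.κ) k0
  have j1 := mul_le_mul_of_nonneg_right (key t1 q.ζ₁ p.ζ₁) k1
  have j2 := mul_le_mul_of_nonneg_right (key t2 q.ζ₂ p.ζ₂) k2
  have j3 := mul_le_mul_of_nonneg_right (key0 q.ζy p.ζy) k3
  have j4 := mul_le_mul_of_nonneg_right (key t3 q.w₁ p.w₁) (sq_nonneg (a z))
  have j5 := mul_le_mul_of_nonneg_right (key t4 q.w₂ p.w₂) (sq_nonneg (b z))
  have j6 := mul_le_mul_of_nonneg_right (key0 q.wb p.wb) (sq_nonneg (a z + b z))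
  have j7 := mul_le_mul_of_nonneg_right (key0 q.wc p.wc) (sq_nonneg (a z - b z))
  linarith [j0, j1, j2, j3, j4, j5, j6, j7]

theorem PB.mono {c' : ℝ} (p : PB c s n₁ n₂ F₁ F₂ M z) (h : c' ≤ c) (hs : 0 ≤ s) (h1 : 0 ≤ n₁)
    (h2 : 0 ≤ n₂) (h3 : 0 ≤ F₁) (h4 : 0 ≤ F₂) : PB c' s n₁ n₂ F₁ F₂ M z := by
  have t1 : 0 ≤ s * n₁ := mul_nonneg hs h1
  have t2 : 0 ≤ s * n₂ := mul_nonneg hs h2
  have t3 : 0 ≤ s * (n₁ * F₁ + s * n₁ ^ 2) := by positivity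
  have t4 : 0 ≤ s * (n₂ * F₂ + s * n₂ ^ 2) := by positivity
  exact ⟨p.κ, (mul_le_mul_of_nonneg_right h t1).trans p.ζ₁,
    (mul_le_mul_of_nonneg_right h t2).trans p.ζ₂, p.ζy,
    (mul_le_mul_of_nonneg_right h t3).trans p.w₁,
    (mul_le_mul_of_nonneg_right h t4).trans p.w₂, p.wb, p.wc⟩

theorem CB.mono {e' : ℝ} (p : CB e s n₁ n₂ F₁ F₂ co z) (h : e ≤ e') (hs : 0 ≤ s) (h1 : 0 ≤ n₁)
    (h2 : 0 ≤ n₂) (h3 : 0 ≤ F₁) (h4 : 0 ≤ F₂) : CB e' s n₁ n₂ F₁ F₂ co z := by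
  have t1 : 0 ≤ s * n₁ := mul_nonneg hs h1
  have t2 : 0 ≤ s * n₂ := mul_nonneg hs h2
  have t3 : 0 ≤ s * (n₁ * F₁ + s * n₁ ^ 2) := by positivity
  have t4 : 0 ≤ s * (n₂ * F₂ + s * n₂ ^ 2) := by positivity
  exact ⟨p.κ, p.ζ₁.trans (mul_le_mul_of_nonneg_right h t1),
    p.ζ₂.trans (mul_le_mul_of_nonneg_right h t2), p.ζy,
    p.w₁.trans (mul_le_mul_of_nonneg_right h t3),
    p.w₂.trans (mul_le_mul_of_nonneg_right h t4), p.wb, p.wc⟩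

/-! ## Margins -/

/-- `m F / 3 ≥ c (s n F + s² n²)`. -/
theorem w_low {c₂ m n F : ℝ} (hc : 0 ≤ c) (hs : 0 ≤ s) (hn : 0 ≤ n) (hc₂ : 0 ≤ c₂)
    (hm : 6 * c * (s * n) ≤ m) (hF : c₂ * n ^ 2 ≤ F) (hsn : s ≤ c₂ * n) :
    c * (s * (n * F + s * n ^ 2)) ≤ 1 / 3 * (m * F) := by
  have hF0 : 0 ≤ F := le_trans (by positivity) hF
  have h1 := mul_le_mul_of_nonneg_right hm hF0
  have h2 : s * n ^ 2 ≤ n * F := by
    calc s * n ^ 2 ≤ c₂ * n * n ^ 2 := mul_le_mul_of_nonneg_right hsn (sq_nonneg n)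
      _ = n * (c₂ * n ^ 2) := by ring
      _ ≤ n * F := mul_le_mul_of_nonneg_left hF hn
  have h3 := mul_le_mul_of_nonneg_left h2 (mul_nonneg hc hs)
  have e1 : c * s * (s * n ^ 2) = c * (s * (s * n ^ 2)) := by ring
  have e2 : c * s * (n * F) = c * (s * (n * F)) := by ring
  have e3 : 6 * c * (s * n) * F = 6 * (c * (s * (n * F))) := by ring
  rw [e1, e2] at h3
  rw [e3] at h1
  have e4 : c * (s * (n * F + s * n ^ 2)) = c * (s * (n * F)) + c * (s * (s * n ^ 2)) := by ring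
  rw [e4]
  linarith

/-- helper303's margin. -/
theorem MU_PB {c₂ : ℝ} (hc : 0 ≤ c) (hs : 0 ≤ s) (h1 : 0 ≤ n₁) (h2 : 0 ≤ n₂) (hc₂ : 0 ≤ c₂)
    (hκ : κ₀ ≤ 1) (hm₁ : 6 * c * (s * n₁) ≤ m₁ z) (hm₂ : 6 * c * (s * n₂) ≤ m₂ z)
    (hF₁ : c₂ * n₁ ^ 2 ≤ σ.F W z) (hF₂ : c₂ * n₂ ^ 2 ≤ τ.F W z) (hs₁ : s ≤ c₂ * n₁)
    (hs₂ : s ≤ c₂ * n₂) :
    PB c s n₁ n₂ (σ.F W z) (τ.F W z) (H303.F.MU σ τ W m₁ m₂ κ₀) z where
  κ := by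
    show 0 ≤ 1 - κ₀
    linarith
  ζ₁ := by
    have : 0 ≤ c * (s * n₁) := by positivity
    show c * (s * n₁) ≤ m₁ z
    linarith
  ζ₂ := by
    have : 0 ≤ c * (s * n₂) := by positivity
    show c * (s * n₂) ≤ m₂ z
    linarith
  ζy := le_rfl
  w₁ := w_low hc hs h1 hc₂ hm₁ hF₁ hs₁
  w₂ := w_low hc hs h2 hc₂ hm₂ hF₂ hs₂
  wb := le_rfl
  wc := le_rfl

/-- helper747's margin. -/
theorem MA_PB {c₂ : ℝ} (hc : 0 ≤ c) (hs : 0 ≤ s) (h1 : 0 ≤ n₁) (h2 : 0 ≤ n₂) (hc₂ : 0 ≤ c₂)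
    (hκ : κ₀ ≤ 1) (hm₁ : 6 * c * (s * n₁) ≤ m z) (hm₂ : 6 * c * (s * n₂) ≤ m z)
    (hF₁ : c₂ * n₁ ^ 2 ≤ σ.F W z) (hF₂ : c₂ * n₂ ^ 2 ≤ τ.F W z) (hs₁ : s ≤ c₂ * n₁)
    (hs₂ : s ≤ c₂ * n₂) :
    PB c s n₁ n₂ (σ.F W z) (τ.F W z) (MA σ τ W m κ₀) z := by
  have h := MU_PB (σ := σ) (τ := τ) (W := W) (m₁ := m) (m₂ := m) hc hs h1 h2 hc₂ hκ hm₁ hm₂
    hF₁ hF₂ hs₁ hs₂
  exact ⟨h.κ, h.ζ₁, h.ζ₂, h.ζy, h.w₁, h.w₂, h.wb, h.wc⟩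

/-! ## Costs -/

/-- Ellipticity of a slot at a point. -/
structure El2 (σ : Sl E ι) (z : E) : Prop where
  lo : ∀ A : ι → ℝ, ∑ i, A i ^ 2 ≤ 2 * ss σ A z
  up : ∀ A : ι → ℝ, ss σ A z ≤ 2 * ∑ i, A i ^ 2

theorem El2.F_nn (h : El2 σ z) (W : E → ℝ) : 0 ≤ σ.F W z := by
  have h1 := h.lo fun i => σ.D i W z
  have h2 : 0 ≤ ∑ i, σ.D i W z ^ 2 := Finset.sum_nonneg fun _ _ => sq_nonneg _
  have e : ss σ (fun i => σ.D i W z) z = σ.F W z := rfl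
  rw [e] at h1
  linarith

theorem El2.DW (h : El2 σ z) (W : E → ℝ) : ∑ i, σ.D i W z ^ 2 ≤ 2 * σ.F W z :=
  h.lo fun i => σ.D i W z

theorem El2.FW (h : El2 σ z) (W : E → ℝ) : σ.F W z ≤ 2 * ∑ i, σ.D i W z ^ 2 :=
  h.up fun i => σ.D i W z

/-- The cost of zone A from the numbers `Z_i ≥ |D_i χ|²`. -/
theorem coA_CB {Z₁ Z₂ : ℝ} (l₁ : El2 σ z) (l₂ : El2 τ z)
    (hη : 0 < η) (hm : 0 ≤ m z)
    (hZ₁ : ∑ i, σ.D i χ z ^ 2 ≤ Z₁) (hZ₂ : ∑ i, τ.D i χ z ^ 2 ≤ Z₂)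
    (a₁ : 32 * η * (rh m z * Z₁) ≤ e / 18 * (s * n₁))
    (a₂ : 32 * η * (rh m z * Z₂) ≤ e / 18 * (s * n₂))
    (b₁ : 6 / η * (m z * Z₁) ≤ e / 2 * (s * (n₁ * σ.F W z + s * n₁ ^ 2)))
    (b₂ : 6 / η * (m z * Z₂) ≤ e / 2 * (s * (n₂ * τ.F W z + s * n₂ ^ 2)))
    (he : 0 ≤ e) (hs : 0 ≤ s) (h1 : 0 ≤ n₁) (h2 : 0 ≤ n₂) :
    CB e s n₁ n₂ (σ.F W z) (τ.F W z) (coA σ τ W m χ η) z := by
  have hr := rh_nonneg (m := m) (z := z) hm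
  have F1 := l₁.F_nn W
  have F2 := l₂.F_nn W
  have half : ∀ {ρ : Sl E ι} {n F Z : ℝ}, El2 ρ z → F = ρ.F W z → 0 ≤ n → 0 ≤ F →
      ∑ i, ρ.D i χ z ^ 2 ≤ Z → 32 * η * (rh m z * Z) ≤ e / 18 * (s * n) →
      6 / η * (m z * Z) ≤ e / 2 * (s * (n * F + s * n ^ 2)) →
      32 * η * (rh m z * ∑ i, ρ.D i χ z ^ 2) ≤ e * (s * n) ∧
      3 / η * (m z * ρ.Γ χ χ z) + 144 * η * (rh m z * (∑ i, ρ.D i χ z ^ 2) *
        ∑ i, ρ.D i W z ^ 2) ≤ e * (s * (n * F + s * n ^ 2)) := by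
    intro ρ n F Z hl hF hn hF0 hZ hA hB
    have nD : 0 ≤ ∑ i, ρ.D i χ z ^ 2 := Finset.sum_nonneg fun _ _ => sq_nonneg _
    have g1 : 32 * η * (rh m z * ∑ i, ρ.D i χ z ^ 2) ≤ e / 18 * (s * n) := by
      refine le_trans ?_ hA
      have := mul_le_mul_of_nonneg_left hZ hr
      have h32 : 0 ≤ 32 * η := by positivity
      exact mul_le_mul_of_nonneg_left this h32
    have t0 : 0 ≤ e * (s * n) := by positivity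
    refine ⟨by linarith, ?_⟩
    have g2 : 3 / η * (m z * ρ.Γ χ χ z) ≤ e / 2 * (s * (n * F + s * n ^ 2)) := by
      refine le_trans ?_ hB
      have h3 : ρ.Γ χ χ z ≤ 2 * Z := by
        have : ss ρ (fun i => ρ.D i χ z) z ≤ _ := hl.up fun i => ρ.D i χ z
        have e1 : ss ρ (fun i => ρ.D i χ z) z = ρ.Γ χ χ z := rfl
        rw [e1] at this
        linarith
      have h4 := mul_le_mul_of_nonneg_left h3 hm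
      have h5 : 0 ≤ 3 / η := by positivity
      have h6 := mul_le_mul_of_nonneg_left h4 h5
      calc _ ≤ _ := h6
        _ = 6 / η * (m z * Z) := by ring
    have g3 : 144 * η * (rh m z * (∑ i, ρ.D i χ z ^ 2) * ∑ i, ρ.D i W z ^ 2) ≤
        e / 2 * (s * (n * F)) := by
      have h3 := hl.DW W
      rw [← hF] at h3
      have h4 : 0 ≤ rh m z * ∑ i, ρ.D i χ z ^ 2 := mul_nonneg hr nD
      have h5 := mul_le_mul_of_nonneg_left h3 h4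
      have h6 : 0 ≤ 144 * η := by positivity
      have h7 := mul_le_mul_of_nonneg_left h5 h6
      have h8 := mul_le_mul_of_nonneg_right g1 hF0
      calc _ ≤ _ := h7
        _ = 9 * (32 * η * (rh m z * ∑ i, ρ.D i χ z ^ 2) * F) := by ring
        _ ≤ 9 * (e / 18 * (s * n) * F) := by linarith
        _ = _ := by ring
    have t1 : 0 ≤ e / 2 * (s * (s * n ^ 2)) := by positivity
    have e2 : e * (s * (n * F + s * n ^ 2)) = e / 2 * (s * (n * F + s * n ^ 2)) +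
        (e / 2 * (s * (n * F)) + e / 2 * (s * (s * n ^ 2))) := by ring
    rw [e2]
    linarith
  obtain ⟨x1, x2⟩ := half l₁ rfl h1 F1 hZ₁ a₁ b₁
  obtain ⟨y1, y2⟩ := half l₂ rfl h2 F2 hZ₂ a₂ b₂
  exact ⟨le_rfl, x1, y1, le_rfl, x2, y2, le_rfl, le_rfl⟩

/-- The cost of helper303's zone. -/
theorem coU_CB {Z₁ Z₂ : ℝ} (l₁ : El2 σ z) (l₂ : El2 τ z)
    (hη : 0 < η) (hm₁ : 0 ≤ m₁ z) (hm₂ : 0 ≤ m₂ z)
    (hZ₁ : ∑ i, σ.D i χ z ^ 2 ≤ Z₁) (hZ₂ : ∑ i, τ.D i χ z ^ 2 ≤ Z₂)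
    (b₁ : 6 / η * (m₁ z * Z₁) ≤ e * (s * (n₁ * σ.F W z + s * n₁ ^ 2)))
    (b₂ : 6 / η * (m₂ z * Z₂) ≤ e * (s * (n₂ * τ.F W z + s * n₂ ^ 2)))
    (he : 0 ≤ e) (hs : 0 ≤ s) (h1 : 0 ≤ n₁) (h2 : 0 ≤ n₂) :
    CB e s n₁ n₂ (σ.F W z) (τ.F W z) (H303.F.coU σ τ m₁ m₂ χ η) z := by
  have half : ∀ {ρ : Sl E ι} {μ Z B : ℝ}, El2 ρ z → 0 ≤ μ →
      ∑ i, ρ.D i χ z ^ 2 ≤ Z → 6 / η * (μ * Z) ≤ B → 3 / η * (μ * ρ.Γ χ χ z) ≤ B := by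
    intro ρ μ Z B hl hμ hZ hB
    refine le_trans ?_ hB
    have h3 : ρ.Γ χ χ z ≤ 2 * Z := by
      have : ss ρ (fun i => ρ.D i χ z) z ≤ _ := hl.up fun i => ρ.D i χ z
      have e1 : ss ρ (fun i => ρ.D i χ z) z = ρ.Γ χ χ z := rfl
      rw [e1] at this
      linarith
    have h4 := mul_le_mul_of_nonneg_left h3 hμ
    have h5 : 0 ≤ 3 / η := by positivity
    have h6 := mul_le_mul_of_nonneg_left h4 h5
    calc _ ≤ _ := h6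
      _ = 6 / η * (μ * Z) := by ring
  have t1 : 0 ≤ e * (s * n₁) := by positivity
  have t2 : 0 ≤ e * (s * n₂) := by positivity
  exact ⟨le_rfl, t1, t2, le_rfl, half l₁ hm₁ hZ₁ b₁, half l₂ hm₂ hZ₂ b₂, le_rfl, le_rfl⟩

end Vale.Agent.P088.R2.H871.E
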